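import Vale.Agent.P267D.Defs

/-! P267, the drift: charts. -/

open scoped Manifold ContDiff Topology
open Filter Metric Set

noncomputable section

namespace Vale.Agent.P267

set_option linter.unusedSectionVars false

variable {X M : Type} [TopologicalSpace X] [ChartedSpace C2 X] [T2Space X] [CompactSpace X]
  [IsManifold 𝓘(ℂ, C2) ω X] [TopologicalSpace M] [ChartedSpace C2 M] [T2Space M]
  [IsManifold 𝓘(ℂ, C2) ω M] {π : M → X} {g : M ≃ₜ M}

variable {m : ℕ} {P : Fin m → OpenPartialHomeomorph M C2} {Q : Fin m → OpenPartialHomeomorph X C2}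
  {w : M → ℝ} {s : ℝ}

theorem IsCyclic.pi_gz (h : IsCyclic π g) (k : ℤ) (p : M) : π ((g ^ k) p) = π p := by

  exact ((h.fib p _).2 ⟨k, rfl⟩).symm

theorem IsCyclic.inv (h : IsCyclic π g) : IsCyclic π g⁻¹ := by

  refine ⟨h.loc, h.surj, fun p q => (h.fib p q).trans ⟨?_, ?_⟩, h.hol_inv, h.hol,
    fun k p e => ?_⟩
  · rintro ⟨k, e⟩
    exact ⟨-k, by rw [inv_zpow', neg_neg, e]⟩
  · rintro ⟨k, e⟩
    exact ⟨-k, by rw [← inv_zpow', e]⟩
  · rw [inv_zpow'] at e
    exact neg_eq_zero.1 (h.free _ p e)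


theorem DA_src {e : OpenPartialHomeomorph M C2} {k : ℤ} {p : M} :
    p ∈ (shiftCh g e k).source ↔ (g ^ k) p ∈ e.source := by
  simp [shiftCh]

theorem IsCyclic.isCh_shift (h : IsCyclic π g) {e : OpenPartialHomeomorph M C2} (he : IsCh e)
    (k : ℤ) : IsCh (shiftCh g e k) := by

  have a : ∀ f : M → ℂ, (f ∘ (g ^ k : M ≃ₜ M).symm) ∘ (g ^ k : M ≃ₜ M) = f := fun f =>
    funext fun q => by simp only [Function.comp_apply, Homeomorph.symm_apply_apply]
  have c := comp_homeo g h.hol h.hol_inv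
  refine ⟨fun p hp f => ?_, fun p hp f => ?_⟩
  · refine Iff.trans ?_ (he.hol ((g ^ k) p) (DA_src.1 hp) (f ∘ (g ^ k : M ≃ₜ M).symm))
    rw [← AB_gz g (fun f p => (c f p).1) k, a]
  · refine Iff.trans ?_ (he.sm ((g ^ k) p) (DA_src.1 hp) (f ∘ (g ^ k : M ≃ₜ M).symm))
    rw [← AB_gz g (fun f p => (c f p).2) k, a]

theorem Lay.pi_mem (L : Lay π g P Q) {a : Fin m} {p : M} (hp : p ∈ (P a).source) :
    π p ∈ (Q a).source ∧ Q a (π p) = P a p := by

  have h1 := (P a).map_source hp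
  have h2 := L.comm a _ h1
  rw [(P a).left_inv hp] at h2
  rw [← L.tgt] at h1
  rw [h2]
  exact ⟨(Q a).map_target h1, (Q a).right_inv h1⟩

theorem Lay.lift (L : Lay π g P Q) {a : Fin m} {x : X} (hx : x ∈ (Q a).source) :
    (P a).symm (Q a x) ∈ (P a).source ∧ π ((P a).symm (Q a x)) = x ∧
      P a ((P a).symm (Q a x)) = Q a x := by

  have h1 : Q a x ∈ (P a).target := L.tgt a ▸ (Q a).map_source hx
  exact ⟨(P a).map_target h1, (L.comm a _ h1).trans ((Q a).left_inv hx), (P a).right_inv h1⟩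


theorem DA_inj (L : Lay π g P Q) {a : Fin m} {p q : M} (hp : p ∈ (P a).source)
    (hq : q ∈ (P a).source) (e : π p = π q) : p = q :=
  (P a).injOn hp hq (by rw [← (L.pi_mem hp).2, ← (L.pi_mem hq).2, e])

/-- Exactly one translate of a point lies in the lifted chart. -/
theorem Lay.uniq (h : IsCyclic π g) (L : Lay π g P Q) {a : Fin m} {p : M}
    (hp : π p ∈ (Q a).source) : ∃! k : ℤ, (g ^ k) p ∈ (P a).source := by

  obtain ⟨h1, h2, -⟩ := L.lift hp
  obtain ⟨k, hk⟩ := (h.fib _ _).1 h2.symm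
  refine ⟨k, mem_of_eq_of_mem hk h1, fun l hl => ?_⟩
  have e := DA_inj L hl h1 ((h.pi_gz l p).trans h2.symm)
  refine sub_eq_zero.1 (h.free _ ((g ^ k) p) ?_)
  rw [← Homeomorph.mul_apply, ← zpow_add, sub_add_cancel, e, hk]

theorem Sh.gz (hw : Sh g w s) (k : ℤ) (p : M) : w ((g ^ k) p) = w p + k * s := by

  induction k using Int.induction_on generalizing p with
  | zero => simp
  | succ k ih =>
    rw [zpow_add_one, Homeomorph.mul_apply, ih, hw.shift]
    push_cast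
    ring
  | pred k ih =>
    have e := hw.shift (g⁻¹ p)
    rw [← Homeomorph.mul_apply, mul_inv_cancel, Homeomorph.one_apply] at e
    rw [zpow_sub_one, Homeomorph.mul_apply, ih, e]
    push_cast
    ring

theorem Sh.cd (hw : Sh g w s) {e : OpenPartialHomeomorph M C2} (he : IsCh e) {z : C2}
    (hz : z ∈ e.target) : ContDiffAt ℝ ∞ (w ∘ e.symm) z := by

  have h := ((he.sm _ (e.map_target hz) _).1 (hw.sm _)).self_of_nhds
  rw [e.right_inv hz] at h
  exact Complex.reCLM.contDiff.contDiffAt.comp _ h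

/-- The local expressions of a shifted function differ by constants. -/
theorem Lay.loc (h : IsCyclic π g) (L : Lay π g P Q) (hw : Sh g w s) {a b : Fin m} {x : X}
    (ha : x ∈ (Q a).source) (hb : x ∈ (Q b).source) : ∃ c : ℝ, ∀ᶠ y in 𝓝 x,
      w ((P b).symm (Q b y)) = w ((P a).symm (Q a y)) + c := by

  obtain ⟨a1, a2, -⟩ := L.lift ha
  obtain ⟨b1, b2, -⟩ := L.lift hb
  obtain ⟨k, hk⟩ := (h.fib _ _).1 (a2.trans b2.symm)
  have c : ContinuousAt (fun y => (g ^ k) ((P a).symm (Q a y))) x :=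
    (g ^ k).continuous.continuousAt.comp (ContinuousAt.comp
      ((P a).continuousAt_symm (L.tgt a ▸ (Q a).map_source ha)) ((Q a).continuousAt ha))
  refine ⟨k * s, ?_⟩
  filter_upwards [c.eventually ((P b).open_source.mem_nhds (mem_of_eq_of_mem hk b1)),
    (Q a).open_source.mem_nhds ha, (Q b).open_source.mem_nhds hb] with y h1 h2 h3
  rw [← hw.gz, DA_inj L h1 (L.lift h3).1 ((h.pi_gz _ _).trans
    ((L.lift h2).2.1.trans (L.lift h3).2.1.symm))]


theorem DA_lev (hw : Sh g w s) {e e' : OpenPartialHomeomorph M C2} (he : IsCh e) (he' : IsCh e')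
    {p : M} (hp : p ∈ e.source) (hp' : p ∈ e'.source) : ∃ T : C2 ≃L[ℂ] C2, ∀ v,
      lev (w ∘ e'.symm) (e' p) v = lev (w ∘ e.symm) (e p) (T v) := by
  have e0 : (e ∘ e'.symm) (e' p) = e p := by rw [Function.comp_apply, e'.left_inv hp']
  have e1 : w ∘ e'.symm =ᶠ[𝓝 (e' p)] (w ∘ e.symm) ∘ (e ∘ e'.symm) := by
    filter_upwards [(e'.tendsto_symm hp').eventually (e.open_source.mem_nhds hp)] with z hz
    simp only [Function.comp_apply, e.left_inv hz]
  refine ⟨ContinuousLinearEquiv.equivOfInverse (fderiv ℂ (e ∘ e'.symm) (e' p))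
    (fderiv ℂ (e' ∘ e.symm) (e p)) (DFunLike.congr_fun (he'.tr_comp he hp' hp))
    (DFunLike.congr_fun (he.tr_comp he' hp hp')), fun v => ?_⟩
  have e2 := lev_comp (by rw [e0]; exact hw.cd he (e.map_source hp)) (he'.tr he hp' hp) v
  rw [e0] at e2
  refine Eq.trans ?_ e2
  unfold lev
  rw [e1.fderiv.fderiv_eq]

/-- The Levi form in two charts. -/
theorem Lay.levT (h : IsCyclic π g) (L : Lay π g P Q) (hw : Sh g w s) {a b : Fin m} {x : X}
    (ha : x ∈ (Q a).source) (hb : x ∈ (Q b).source) : ∃ T : C2 ≃L[ℂ] C2, ∀ v,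
      lev (w ∘ (P b).symm) (Q b x) v = lev (w ∘ (P a).symm) (Q a x) (T v) := by

  obtain ⟨a1, a2, a3⟩ := L.lift ha
  obtain ⟨b1, b2, b3⟩ := L.lift hb
  obtain ⟨k, hk⟩ := (h.fib _ _).1 (a2.trans b2.symm)
  obtain ⟨T, hT⟩ := DA_lev hw (L.isCh a) (h.isCh_shift (L.isCh b) k) a1
    (DA_src.2 (by rw [hk]; exact b1))
  have e1 : shiftCh g (P b) k ((P a).symm (Q a x)) = Q b x := by
    rw [← b3, ← hk]
    rfl
  have e2 : w ∘ (P b).symm = fun z => (w ∘ (shiftCh g (P b) k).symm) z + k * s := by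
    funext z
    rw [Function.comp_apply, Function.comp_apply, ← hw.gz]
    exact congrArg w ((g ^ k).apply_symm_apply _).symm
  have e3 : fderiv ℝ (w ∘ (P b).symm) = fderiv ℝ (w ∘ (shiftCh g (P b) k).symm) := by
    rw [e2]
    exact funext fun z => fderiv_add_const _
  refine ⟨T, fun v => ?_⟩
  rw [← a3, ← hT, e1]
  unfold lev
  rw [e3]

end Vale.Agent.P267
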