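import Vale.Agent.P267D.Defs

/-! P267, the drift: charts. -/

open scoped Manifold ContDiff Topology
open Filter Metric Set

noncomputable section

namespace Vale.Agent.P267

set_option linter.unusedSectionVars false

variable {X M : Type} [TopologicalSpace X] [ChartedSpace C2 X] [T2Space X] [CompactSpace X]
  [IsManifold 𝓘(ℂ, C2) ω X] [TopologicalSpace M] [ChartedSpace C2 M] [T2Space M]
  [IsManifold 𝓘(ℂ, C2) ω M] {π : M → X} {g : M ≃ₜ M}

variable {m : ℕ} {P : Fin m → OpenPartialHomeomorph M C2} {Q : Fin m → OpenPartialHomeomorph X C2}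
  {w : M → ℝ} {s : ℝ}

theorem DA0_pt (h : IsCyclic π g) (x : X) : ∃ (P : OpenPartialHomeomorph M C2)
    (φ : OpenPartialHomeomorph M X), IsCh P ∧ P.source ⊆ φ.source ∧ EqOn π φ φ.source ∧
      x ∈ (φ.symm.trans P).source ∧
      ContMDiffOn 𝓘(ℂ, C2) 𝓘(ℂ, C2) ω φ.symm φ.target := by
  obtain ⟨p, rfl⟩ := h.surj x
  obtain ⟨Φ, hp, e⟩ := h.loc p
  have e1 : π p = Φ.toOpenPartialHomeomorph p := e hp
  refine ⟨(chartAt C2 p).restrOpen Φ.source Φ.open_source, Φ.toOpenPartialHomeomorph,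
    ⟨fun q hq => (isCh_chartAt p).hol q hq.1, fun q hq => (isCh_chartAt p).sm q hq.1⟩,
    inter_subset_right, e, ?_, Φ.contMDiffOn_invFun⟩
  rw [e1, OpenPartialHomeomorph.trans_source]
  refine ⟨Φ.toOpenPartialHomeomorph.map_source hp, ?_⟩
  rw [mem_preimage, Φ.toOpenPartialHomeomorph.left_inv hp]
  exact ⟨mem_chart_source C2 p, hp⟩

theorem IsCyclic.lay (h : IsCyclic π g) : ∃ (m : ℕ) (P : Fin m → OpenPartialHomeomorph M C2)
    (Q : Fin m → OpenPartialHomeomorph X C2), Lay π g P Q := by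
  choose P φ h1 h2 h3 h4 h5 using DA0_pt h
  obtain ⟨T, hT⟩ := isCompact_univ.elim_finite_subcover (fun x => ((φ x).symm.trans (P x)).source)
    (fun x => OpenPartialHomeomorph.open_source _) fun x _ => mem_iUnion.2 ⟨x, h4 x⟩
  have c : ∀ a, ∀ z ∈ (P a).target, π ((P a).symm z) = ((φ a).symm.trans (P a)).symm z :=
    fun a z hz => h3 a (h2 a ((P a).map_target hz))
  refine ⟨T.card, fun a => P (T.equivFin.symm a), fun a => (φ (T.equivFin.symm a)).symm.trans
    (P (T.equivFin.symm a)), fun a => h1 _, fun a => ?_, fun a => c _, fun x => ?_,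
    fun a b z hz => ?_⟩
  · rw [OpenPartialHomeomorph.trans_target]
    exact inter_eq_left.2 fun z hz => h2 _ ((P _).map_target hz)
  · obtain ⟨y, hy, hx⟩ := mem_iUnion₂.1 (hT (mem_univ x))
    exact ⟨T.equivFin ⟨y, hy⟩, by rwa [Equiv.symm_apply_apply]⟩
  · generalize (T.equivFin.symm a : X) = a at hz ⊢
    generalize (T.equivFin.symm b : X) = b at hz ⊢
    have z1 : z ∈ (P a).target := hz.1.1
    have z2 := hz.2
    rw [mem_preimage, ← c a z z1, OpenPartialHomeomorph.trans_source] at z2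
    have k := gc_an (((h5 b).contMDiffAt ((φ b).open_target.mem_nhds z2.1)).comp _
      (h.loc ((P a).symm z)).contMDiffAt) (h1 a) ((P a).map_target z1) (h1 b) z2.2
    rw [(P a).right_inv z1] at k
    refine k.congr ?_
    filter_upwards [(P a).open_target.mem_nhds z1] with w hw
    rw [← c a w hw]
    rfl

end Vale.Agent.P267
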