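import Vale.Agent.P267D.DA

/-! P267, the drift: a first height function. -/

open scoped Manifold ContDiff Topology
open Filter Metric Set

noncomputable section

namespace Vale.Agent.P267

set_option linter.unusedSectionVars false

variable {X M : Type} [TopologicalSpace X] [ChartedSpace C2 X] [T2Space X] [CompactSpace X]
  [IsManifold 𝓘(ℂ, C2) ω X] [TopologicalSpace M] [ChartedSpace C2 M] [T2Space M]
  [IsManifold 𝓘(ℂ, C2) ω M] {π : M → X} {g : M ≃ₜ M}

variable {m : ℕ} {P : Fin m → OpenPartialHomeomorph M C2} {Q : Fin m → OpenPartialHomeomorph X C2}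
  {ρ : Fin m → X → ℝ} {w : M → ℝ} {s : ℝ}

/-- Smooth functions of the base give smooth functions on the cover. -/
theorem Lay.sm_pull (h : IsCyclic π g) (L : Lay π g P Q) {u : X → ℝ}
    (hu : ∀ b, ContDiffOn ℝ ∞ (u ∘ (Q b).symm) (Q b).target) : Sh g (u ∘ π) 0 := by
  refine ⟨fun p => ?_, fun p => (congrArg u (h.pi_gz 1 p)).trans (add_zero _).symm⟩
  obtain ⟨a, ha⟩ := L.cover (π p)
  obtain ⟨k, hk, -⟩ := L.uniq h ha
  have ht : (Q a).target ∈ 𝓝 (P a ((g ^ k) p)) :=
    (Q a).open_target.mem_nhds (L.tgt a ▸ (P a).map_source hk)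
  refine ((h.isCh_shift (L.isCh a) k).sm_fun (p := p) (F := fun z => (u ((Q a).symm z) : ℂ))
    ⟨trivial, hk⟩ ?_).congr ?_
  · filter_upwards [eventually_mem_nhds_iff.2 ht] with z hz
    exact Complex.ofRealCLM.contDiff.contDiffAt.comp z ((hu a).contDiffAt hz)
  · filter_upwards [(g ^ k).continuous.continuousAt.eventually ((P a).open_source.mem_nhds hk)]
      with q hq
    change (u ((Q a).symm (P a ((g ^ k) q))) : ℂ) = u (π q)
    rw [← (L.pi_mem hq).2, (Q a).left_inv (L.pi_mem hq).1, h.pi_gz]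

theorem Lay.height (h : IsCyclic π g) (L : Lay π g P Q) (hρ : Pu Q ρ) : ∃ t, Sh g t 1 := by
  have ex : ∀ a p, ∃ k : ℤ, π p ∈ (Q a).source →
      (g ^ k) p ∈ (P a).source ∧ ∀ l : ℤ, (g ^ l) p ∈ (P a).source → l = k := fun a p => by
    by_cases hp : π p ∈ (Q a).source
    · exact (L.uniq h hp).imp fun _ hk _ => hk
    · exact ⟨0, fun hq => absurd hq hp⟩
  choose k hk using ex
  have e1 : ∀ p, π (g p) = π p := h.pi_gz 1
  refine ⟨fun p => ∑ a, ρ a (π p) * (-k a p), fun p => ?_, fun p => ?_⟩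
  · refine (SmAt.sum (W := Finset.univ) (F := fun a q => ((ρ a (π q) * (-k a q) : ℝ) : ℂ))
      fun a _ => ?_).congr (.of_forall fun q => by simp)
    by_cases hp : π p ∈ (Q a).source
    · refine (((L.sm_pull h (hρ.sm a)).sm p).mul (smAt_const (-k a p))).congr ?_
      filter_upwards [(g ^ k a p).continuous.continuousAt.eventually
        ((P a).open_source.mem_nhds (hk a p hp).1)] with q hq
      rw [← (hk a q (h.pi_gz _ q ▸ (L.pi_mem hq).1)).2 _ hq]
      simp
    · refine smAt_zero.congr ?_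
      filter_upwards [h.loc.contMDiff.continuous.continuousAt.eventually
        (notMem_tsupport_iff_eventuallyEq.1 fun hq => hp (hρ.supp a hq))] with q hq
      simp [hq]
  · rw [← hρ.sum (π p), ← Finset.sum_add_distrib, e1]
    refine Finset.sum_congr rfl fun a _ => ?_
    by_cases h0 : ρ a (π p) = 0
    · simp [h0]
    have hp := hρ.supp a (subset_tsupport _ h0)
    have h1 := (hk a p hp).2 (k a (g p) + 1) (by
      rw [zpow_add_one]
      exact (hk a (g p) (e1 p ▸ hp)).1)
    rw [← h1]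
    push_cast
    ring

theorem Sh.lin {u : M → ℝ} (hw : Sh g w s) (hu : Sh g u 0) (c : ℝ) :
    Sh g (fun p => c * w p + u p) (c * s) :=
  ⟨fun p => (((hw.sm p).smul c).add (hu.sm p)).congr (.of_forall fun q => by simp), fun p => by
    rw [hw.shift, hu.shift]
    ring⟩

end Vale.Agent.P267
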