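import Vale.Agent.P267D.DA
import Vale.Agent.P267D.DB0

/-! P267, the drift: a first height function. -/

open scoped Manifold ContDiff Topology
open Filter Metric Set

noncomputable section

namespace Vale.Agent.P267

set_option linter.unusedSectionVars false

variable {X M : Type} [TopologicalSpace X] [ChartedSpace C2 X] [T2Space X] [CompactSpace X]
  [IsManifold 𝓘(ℂ, C2) ω X] [TopologicalSpace M] [ChartedSpace C2 M] [T2Space M]
  [IsManifold 𝓘(ℂ, C2) ω M] {π : M → X} {g : M ≃ₜ M}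

variable {m : ℕ} {P : Fin m → OpenPartialHomeomorph M C2} {Q : Fin m → OpenPartialHomeomorph X C2}
  {ρ : Fin m → X → ℝ} {w : M → ℝ} {s : ℝ}

theorem DB_congr {F G : C2 → ℝ} {z : C2} (e : F =ᶠ[𝓝 z] G) (v : C2) : lev F z v = lev G z v := by
  unfold lev
  rw [e.fderiv.fderiv_eq]

theorem DB_lin {F G : C2 → ℝ} {z : C2} (hF : ContDiffAt ℝ ∞ F z) (hG : ContDiffAt ℝ ∞ G z)
    (c : ℝ) (v : C2) : lev (fun y => c * F y + G y) z v = c * lev F z v + lev G z v := by
  have d : ∀ {F : C2 → ℝ}, ContDiffAt ℝ ∞ F z →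
      HasFDerivAt (fderiv ℝ F) (fderiv ℝ (fderiv ℝ F) z) z := fun hF =>
    ((hF.fderiv_right (m := 1) (by norm_cast)).differentiableAt one_ne_zero).hasFDerivAt
  have e : fderiv ℝ (fun y => c * F y + G y) =ᶠ[𝓝 z] fun y => c • fderiv ℝ F y + fderiv ℝ G y := by
    filter_upwards [P271A.Brid_ev hF, P271A.Brid_ev hG] with y h1 h2
    exact ((h1.hasFDerivAt.const_mul c).fun_add h2.hasFDerivAt).fderiv
  unfold lev
  rw [e.fderiv_eq, (((d hF).fun_const_smul c).fun_add (d hG)).fderiv]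
  simp only [add_apply, smul_apply, smul_eq_mul]
  ring

theorem DB_trc {F : C2 → ℝ} {z : C2} (hF : ContDiffAt ℝ ∞ F z) : ContDiffAt ℝ ∞ (trc F) z := by
  have h : ContDiffAt ℝ ∞ (fderiv ℝ (fderiv ℝ F)) z :=
    (hF.fderiv_right (m := ∞) (by norm_cast)).fderiv_right (m := ∞) (by norm_cast)
  have k : ∀ v, ContDiffAt ℝ ∞ (fun y => lev F y v) z := fun v =>
    ((h.clm_apply contDiffAt_const).clm_apply contDiffAt_const).add
      ((h.clm_apply contDiffAt_const).clm_apply contDiffAt_const)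
  exact (k _).add (k _)

theorem Lay.pop_lin (h : IsCyclic π g) (L : Lay π g P Q) (hρ : Pu Q ρ) (hw : Sh g w s)
    {u : X → ℝ} (hu : ∀ b, ContDiffOn ℝ ∞ (u ∘ (Q b).symm) (Q b).target) (c : ℝ) (x : X) :
    pop Q ρ (fun b => (fun p => c * w p + u (π p)) ∘ (P b).symm) x =
      c * pop Q ρ (fun b => w ∘ (P b).symm) x + pop Q ρ (fun b => u ∘ (Q b).symm) x := by
  have _ := h
  unfold pop
  rw [Finset.mul_sum, ← Finset.sum_add_distrib]
  refine Finset.sum_congr rfl fun b _ => ?_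
  by_cases h0 : ρ b x = 0
  · simp [h0]
  have hx : x ∈ (Q b).source := hρ.supp b (subset_tsupport _ h0)
  have hz := (Q b).map_source hx
  have hn := (Q b).open_target.mem_nhds hz
  have e : (fun p => c * w p + u (π p)) ∘ (P b).symm =ᶠ[𝓝 (Q b x)]
      fun y => c * (w ∘ (P b).symm) y + (u ∘ (Q b).symm) y := by
    filter_upwards [hn] with y hy
    simp only [Function.comp_apply, L.comm b y (L.tgt b ▸ hy)]
  have k := DB_lin (hw.cd (L.isCh b) (L.tgt b ▸ hz)) ((hu b).contDiffAt hn) c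
  simp only [trc, DB_congr e, k]
  ring

theorem pop_neg (F : Fin m → C2 → ℝ) (x : X) :
    pop Q ρ (fun b z => -F b z) x = -pop Q ρ F x := by
  have e : ∀ b, fderiv ℝ (fun z => -F b z) = fun z => -fderiv ℝ (F b) z := fun b =>
    funext fun z => fderiv_fun_neg
  unfold pop
  rw [← Finset.sum_neg_distrib]
  refine Finset.sum_congr rfl fun b _ => ?_
  simp only [trc, lev, e, fderiv_fun_neg, neg_apply]
  ring

theorem pop_sm (hQ : ∀ a b, AnalyticOnNhd ℂ (fun z => Q b ((Q a).symm z))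
    ((Q a).target ∩ (Q a).symm ⁻¹' (Q b).source)) (hρ : Pu Q ρ) {F : Fin m → C2 → ℝ}
    (hF : ∀ b, ContDiffOn ℝ ∞ (F b) (Q b).target) (a : Fin m) :
    ContDiffOn ℝ ∞ (pop Q ρ F ∘ (Q a).symm) (Q a).target := by
  intro z hz
  refine ContDiffAt.contDiffWithinAt ?_
  have hn := (Q a).open_target.mem_nhds hz
  show ContDiffAt ℝ ∞ (fun y => ∑ b, ρ b ((Q a).symm y) * trc (F b) (Q b ((Q a).symm y))) z
  refine ContDiffAt.sum fun b _ => ?_
  by_cases hx : (Q a).symm z ∈ tsupport (ρ b)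
  · have h1 := hρ.supp b hx
    have h2 := DB_trc ((hF b).contDiffAt ((Q b).open_target.mem_nhds ((Q b).map_source h1)))
    exact ((hρ.sm b a).contDiffAt hn).mul (ContDiffAt.comp (g := trc (F b)) z h2
      (((hQ a b z ⟨hz, h1⟩).contDiffAt (n := ∞)).restrict_scalars ℝ))
  · refine (contDiffAt_const (c := 0)).congr_of_eventuallyEq ?_
    filter_upwards [((Q a).continuousAt_symm hz).eventually
      (notMem_tsupport_iff_eventuallyEq.1 hx)] with y hy
    rw [hy, Pi.zero_apply, zero_mul]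

theorem Lay.drift (h : IsCyclic π g) (L : Lay π g P Q) (hρ : Pu Q ρ) (hw : Sh g w s)
    (hp : ∀ x, 0 < pop Q ρ (fun b => w ∘ (P b).symm) x) (p : M) : ∃ v, 0 < levi w p v := by
  obtain ⟨b, -, hb⟩ := Finset.exists_lt_of_sum_lt (s := Finset.univ) (f := fun _ : Fin m => (0 : ℝ))
    (g := fun b => ρ b (π p) * trc (w ∘ (P b).symm) (Q b (π p))) (by rw [Finset.sum_const_zero]; exact hp (π p))
  have h0 : ρ b (π p) ≠ 0 := fun e => by simp [e] at hb
  have h1 := (mul_pos_iff_of_pos_left ((hρ.nonneg _ _).lt_of_ne' h0)).1 hb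
  obtain ⟨v, hv⟩ : ∃ v, 0 < lev (w ∘ (P b).symm) (Q b (π p)) v := by
    by_contra hc
    push Not at hc
    exact absurd h1 (not_lt.2 (add_nonpos (hc _) (hc _)))
  obtain ⟨k, hk, -⟩ := L.uniq h (hρ.supp b (subset_tsupport _ h0))
  have hP := h.isCh_shift (L.isCh b) k
  have hp : p ∈ (shiftCh g (P b) k).source := ⟨trivial, hk⟩
  have e3 : shiftCh g (P b) k p = Q b (π p) := by
    rw [← h.pi_gz k p]
    exact (L.pi_mem hk).2.symm
  have hz := (shiftCh g (P b) k).map_source hp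
  have e4 : w ∘ (P b).symm = fun y => 1 * (w ∘ (shiftCh g (P b) k).symm) y + k * s := by
    funext y
    rw [one_mul, Function.comp_apply, Function.comp_apply, ← hw.gz]
    exact congrArg w ((g ^ k).apply_symm_apply _).symm
  have hF := hw.cd hP hz
  rw [← e3, e4, DB_lin hF contDiffAt_const] at hv
  generalize shiftCh g (P b) k = e at hP hp hz hF hv
  have hQ : IsCh (chartAt C2 p) := isCh_chartAt p
  have hq : p ∈ (chartAt C2 p).source := mem_chart_source C2 p
  have e0 : (e ∘ (chartAt C2 p).symm) (chartAt C2 p p) = e p := by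
    rw [Function.comp_apply, (chartAt C2 p).left_inv hq]
  have e1 : w ∘ (chartAt C2 p).symm =ᶠ[𝓝 (chartAt C2 p p)]
      (w ∘ e.symm) ∘ (e ∘ (chartAt C2 p).symm) := by
    filter_upwards [((chartAt C2 p).tendsto_symm hq).eventually (e.open_source.mem_nhds hp)]
      with z hz
    simp only [Function.comp_apply, e.left_inv hz]
  refine ⟨fderiv ℂ (chartAt C2 p ∘ e.symm) (e p) v, ?_⟩
  have e2 := DFunLike.congr_fun (hP.tr_comp hQ hp hq) v
  rw [ContinuousLinearMap.comp_apply, ContinuousLinearMap.id_apply] at e2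
  show 0 < lev (w ∘ (chartAt C2 p).symm) (chartAt C2 p p) _
  rw [DB_congr e1, lev_comp (by rw [e0]; exact hF) (hQ.tr hP hq hp), e0, e2]
  simpa [lev] using hv

end Vale.Agent.P267
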