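import Vale.Agent.P267D.Defs

/-! P267, the drift: algebra of the Levi form, pluriharmonic functions. -/

open scoped Manifold ContDiff Topology
open Filter Metric Set

noncomputable section

namespace Vale.Agent.P267

set_option linter.unusedSectionVars false

variable {F : C2 → ℝ} {z : C2}

/-- The Levi form in real coordinates. -/
def DG_q (P Q U W a b c d : ℝ) : ℝ :=
  (a ^ 2 + b ^ 2) * P + (c ^ 2 + d ^ 2) * Q + 2 * (a * c + b * d) * U + 2 * (a * d - b * c) * W

theorem DG_id (P Q U W a b c d : ℝ) : (P + Q) * DG_q P Q U W a b c d =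
    (P * a + U * c + W * d) ^ 2 + (P * b + U * d - W * c) ^ 2 + (Q * c + U * a - W * b) ^ 2 +
      (Q * d + U * b + W * a) ^ 2 + (P * Q - W ^ 2 - U ^ 2) * (a ^ 2 + b ^ 2 + c ^ 2 + d ^ 2) := by
  unfold DG_q
  ring

theorem DG_exp (v : C2) :
    v = (v 0).re • bs 0 + (v 0).im • bs 1 + (v 1).re • bs 2 + (v 1).im • bs 3 := by
  funext i
  fin_cases i <;> simp [bs, Complex.ext_iff]

theorem DG_bil (hF : ContDiffAt ℝ ∞ F z) (v : C2) : fderiv ℝ (fderiv ℝ F) z v v =
    (v 0).re ^ 2 * hes F z 0 0 + (v 0).im ^ 2 * hes F z 1 1 + (v 1).re ^ 2 * hes F z 2 2 +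
      (v 1).im ^ 2 * hes F z 3 3 + 2 * ((v 0).re * (v 0).im * hes F z 0 1 +
      (v 0).re * (v 1).re * hes F z 0 2 + (v 0).re * (v 1).im * hes F z 0 3 +
      (v 0).im * (v 1).re * hes F z 1 2 + (v 0).im * (v 1).im * hes F z 1 3 +
      (v 1).re * (v 1).im * hes F z 2 3) := by
  have hs : ∀ a b, fderiv ℝ (fderiv ℝ F) z a b = fderiv ℝ (fderiv ℝ F) z b a :=
    (hF.of_le (m := 2) (by norm_cast)).isSymmSndFDerivAt (by simp)
  unfold hes
  generalize fderiv ℝ (fderiv ℝ F) z = B at hs ⊢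
  have e : B v v = B ((v 0).re • bs 0 + (v 0).im • bs 1 + (v 1).re • bs 2 + (v 1).im • bs 3)
      ((v 0).re • bs 0 + (v 0).im • bs 1 + (v 1).re • bs 2 + (v 1).im • bs 3) := by
    rw [← DG_exp v]
  rw [e]
  simp only [map_add, map_smul, add_apply, smul_apply, smul_eq_mul]
  rw [hs (bs 1) (bs 0), hs (bs 2) (bs 0), hs (bs 3) (bs 0), hs (bs 2) (bs 1), hs (bs 3) (bs 1),
    hs (bs 3) (bs 2)]
  ring

theorem DG_lev (hF : ContDiffAt ℝ ∞ F z) (v : C2) : lev F z v =
    DG_q (hes F z 0 0 + hes F z 1 1) (hes F z 2 2 + hes F z 3 3) (hes F z 0 2 + hes F z 1 3)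
      (hes F z 0 3 - hes F z 1 2) (v 0).re (v 0).im (v 1).re (v 1).im := by
  rw [lev, DG_bil hF, DG_bil hF, DG_q]
  simp only [Pi.smul_apply, smul_eq_mul, Complex.I_mul_re, Complex.I_mul_im]
  ring

theorem dtm_semi (hF : ContDiffAt ℝ ∞ F z) (h : 0 ≤ dtm F z) :
    (∀ v, 0 ≤ lev F z v) ∨ ∀ v, lev F z v ≤ 0 := by
  simp only [DG_lev hF]
  unfold dtm at h
  generalize hes F z 0 0 + hes F z 1 1 = P at h ⊢
  generalize hes F z 2 2 + hes F z 3 3 = Q at h ⊢
  generalize hes F z 0 2 + hes F z 1 3 = U at h ⊢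
  generalize hes F z 0 3 - hes F z 1 2 = W at h ⊢
  have key : ∀ a b c d, 0 ≤ (P + Q) * DG_q P Q U W a b c d := fun a b c d => by
    rw [DG_id]
    positivity
  rcases lt_trichotomy (P + Q) 0 with h1 | h1 | h1
  · exact Or.inr fun v => nonpos_of_mul_nonneg_right (key _ _ _ _) h1
  · have hQ : Q = -P := by linarith
    subst hQ
    have a1 : P = 0 := by nlinarith [sq_nonneg U, sq_nonneg W]
    have a2 : U = 0 := by nlinarith [sq_nonneg P, sq_nonneg W]
    have a3 : W = 0 := by nlinarith [sq_nonneg P, sq_nonneg U]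
    exact Or.inl fun v => by simp [DG_q, a1, a2, a3]
  · exact Or.inl fun v => nonneg_of_mul_nonneg_right (key _ _ _ _) h1

theorem dtm_def (hF : ContDiffAt ℝ ∞ F z) (h : 0 < dtm F z) :
    (∀ v, v ≠ 0 → 0 < lev F z v) ∨ ∀ v, v ≠ 0 → lev F z v < 0 := by
  simp only [DG_lev hF]
  unfold dtm at h
  generalize hes F z 0 0 + hes F z 1 1 = P at h ⊢
  generalize hes F z 2 2 + hes F z 3 3 = Q at h ⊢
  generalize hes F z 0 2 + hes F z 1 3 = U at h ⊢
  generalize hes F z 0 3 - hes F z 1 2 = W at h ⊢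
  have key : ∀ v : C2, v ≠ 0 →
      0 < (P + Q) * DG_q P Q U W (v 0).re (v 0).im (v 1).re (v 1).im := fun v hv => by
    have h1 : 0 < (v 0).re ^ 2 + (v 0).im ^ 2 + (v 1).re ^ 2 + (v 1).im ^ 2 := by
      refine lt_of_le_of_ne (by positivity) fun e => hv ?_
      have a := sq_nonneg (v 0).re
      have b := sq_nonneg (v 0).im
      have c := sq_nonneg (v 1).re
      have d := sq_nonneg (v 1).im
      rw [DG_exp v, pow_eq_zero_iff (n := 2) two_ne_zero |>.1 (by linarith : (v 0).re ^ 2 = 0),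
        pow_eq_zero_iff (n := 2) two_ne_zero |>.1 (by linarith : (v 0).im ^ 2 = 0),
        pow_eq_zero_iff (n := 2) two_ne_zero |>.1 (by linarith : (v 1).re ^ 2 = 0),
        pow_eq_zero_iff (n := 2) two_ne_zero |>.1 (by linarith : (v 1).im ^ 2 = 0)]
      simp
    rw [DG_id]
    positivity
  rcases le_or_gt (P + Q) 0 with h1 | h1
  · exact Or.inr fun v hv => neg_of_mul_pos_right (key v hv) h1
  · exact Or.inl fun v hv => pos_of_mul_pos_right (key v hv) h1.le

theorem lev_zero (hF : ContDiffAt ℝ ∞ F z) (h : (∀ v, 0 ≤ lev F z v) ∨ ∀ v, lev F z v ≤ 0)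
    (h0 : trc F z = 0) (v : C2) : lev F z v = 0 := by
  simp only [trc, DG_lev hF] at h h0 ⊢
  generalize hes F z 0 0 + hes F z 1 1 = P at h h0 ⊢
  generalize hes F z 2 2 + hes F z 3 3 = Q at h h0 ⊢
  generalize hes F z 0 2 + hes F z 1 3 = U at h h0 ⊢
  generalize hes F z 0 3 - hes F z 1 2 = W at h h0 ⊢
  have key : P = 0 ∧ Q = 0 ∧ U = 0 ∧ W = 0 := by
    rcases h with h | h
    all_goals
      have a1 := h ![1, 0]
      have a2 := h ![0, 1]
      have a3 := h ![1, 1]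
      have a4 := h ![1, -1]
      have a5 := h ![1, Complex.I]
      have a6 := h ![1, -Complex.I]
      simp only [DG_q, Matrix.cons_val_zero, Matrix.cons_val_one, Complex.one_re, Complex.one_im,
        Complex.zero_re, Complex.zero_im, Complex.neg_re, Complex.neg_im, Complex.I_re,
        Complex.I_im, Pi.single_eq_same, Pi.single_eq_of_ne (zero_ne_one' (Fin 2)),
        Pi.single_eq_of_ne (one_ne_zero' (Fin 2))] at h0 a1 a2 a3 a4 a5 a6
      refine ⟨?_, ?_, ?_, ?_⟩ <;> linarith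
  simp [DG_q, key.1, key.2.1, key.2.2.1, key.2.2.2]

end Vale.Agent.P267
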