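import Vale.Agent.P267D.Defs

/-! P267, the drift: algebra of the Levi form, pluriharmonic functions. -/

open scoped Manifold ContDiff Topology
open Filter Metric Set

noncomputable section

namespace Vale.Agent.P267

set_option linter.unusedSectionVars false

variable {F : C2 → ℝ} {z : C2}

theorem dg0_ext : ∃ L : (C2 →L[ℝ] ℝ) →L[ℝ] C2 →L[ℂ] ℂ,
    ∀ a v, L a v = (a v : ℂ) - Complex.I * (a (Complex.I • v) : ℂ) :=
  ⟨((StrongDual.extendRCLikeₗᵢ (𝕜 := ℂ) (F := C2)).toContinuousLinearEquiv :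
    StrongDual ℝ C2 →L[ℝ] StrongDual ℂ C2), fun _ _ => rfl⟩

theorem dg0_sym {B : C2 →L[ℝ] C2 →L[ℝ] ℝ} (hs : ∀ x y, B x y = B y x)
    (h0 : ∀ v, B v v + B (Complex.I • v) (Complex.I • v) = 0) (x y : C2) :
    B x (Complex.I • y) = B y (Complex.I • x) := by
  have h1 := h0 (x + Complex.I • y)
  have h2 := h0 x
  have h3 := h0 y
  have e : Complex.I • (x + Complex.I • y) = Complex.I • x - y := by
    rw [smul_add, smul_smul, Complex.I_mul_I, neg_smul, one_smul, sub_eq_add_neg]
  rw [e] at h1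
  simp only [map_add, map_sub, add_apply, sub_apply] at h1
  linarith [hs x (Complex.I • y), hs y (Complex.I • x)]

/-- A pluriharmonic function is the real part of a holomorphic function. -/
theorem re_hol (hF : ∀ᶠ y in 𝓝 z, ContDiffAt ℝ ∞ F y ∧ ∀ v, lev F y v = 0) :
    ∃ H : C2 → ℂ, AnalyticAt ℂ H z ∧ ∀ᶠ y in 𝓝 z, (H y).re = F y := by
  obtain ⟨L, hL⟩ := dg0_ext
  obtain ⟨r, hr, h⟩ := Metric.eventually_nhds_iff_ball.1 hF
  have h1 : ∀ y ∈ ball z r, HasFDerivAt (fun w => L (fderiv ℝ F w))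
      (L.comp (fderiv ℝ (fderiv ℝ F) y)) y := fun y hy =>
    L.hasFDerivAt.comp y (((h y hy).1.fderiv_right (m := 1) (by norm_cast)).differentiableAt
      one_ne_zero).hasFDerivAt
  obtain ⟨f, hf⟩ := (convex_ball z r).exists_forall_hasFDerivAt_of_fderiv_symmetric isOpen_ball
    (show DifferentiableOn ℝ (fun w => L (fderiv ℝ F w)) (ball z r) from
      fun y hy => (h1 y hy).differentiableAt.differentiableWithinAt)
    fun y hy a b => by
      have hs : ∀ a b, fderiv ℝ (fderiv ℝ F) y a b = fderiv ℝ (fderiv ℝ F) y b a :=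
        (h y hy).1.isSymmSndFDerivAt (by simp only [minSmoothness_of_isRCLikeNormedField]; norm_cast)
      rw [(h1 y hy).fderiv, ContinuousLinearMap.comp_apply, ContinuousLinearMap.comp_apply, hL, hL,
        hs a b, dg0_sym hs (h y hy).2 a b]
  have h2 : ∀ y ∈ ball z r, HasFDerivAt (fun w => (f w).re - F w) (0 : C2 →L[ℝ] ℝ) y :=
    fun y hy => by
      refine ((Complex.reCLM.hasFDerivAt.comp y ((hf y hy).restrictScalars ℝ)).sub
        ((h y hy).1.differentiableAt (by simp)).hasFDerivAt).congr_fderiv ?_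
      ext v
      simp [hL]
  refine ⟨fun w => f w + (F z - (f z).re : ℝ), (P278F.analyticAt_of_eventually ?_).add
    analyticAt_const, ?_⟩ <;> filter_upwards [ball_mem_nhds z hr] with y hy
  · exact (hf y hy).differentiableAt
  · have h3 := isOpen_ball.is_const_of_fderiv_eq_zero (convex_ball z r).isPreconnected
      (fun y hy => (h2 y hy).differentiableAt.differentiableWithinAt)
      (fun y hy => (h2 y hy).fderiv) hy (mem_ball_self hr)
    rw [Complex.add_re, Complex.ofReal_re]
    linarith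

theorem const_of_max {H : C2 → ℂ} (hH : AnalyticAt ℂ H z)
    (h : ∀ᶠ y in 𝓝 z, (H y).re ≤ (H z).re) : ∀ᶠ y in 𝓝 z, H y = H z := by
  have h1 := Complex.eventually_eq_of_isLocalMax_norm (f := fun y => Complex.exp (H y - H z))
    (c := z) (hH.eventually_analyticAt.mono fun y hy => (hy.differentiableAt.sub_const _).cexp)
    (h.mono fun y hy => by
      simp only [Function.comp, Complex.norm_exp, Complex.sub_re]
      exact Real.exp_le_exp.2 (by linarith))
  have h2 : ∀ᶠ y in 𝓝 z, dist (H y) (H z) < 1 := hH.continuousAt.eventually (ball_mem_nhds _ one_pos)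
  filter_upwards [h1, h2] with y h3 h4
  rw [sub_self, Complex.exp_zero, Complex.exp_eq_one_iff] at h3
  obtain ⟨n, hn⟩ := h3
  rw [dist_eq_norm, hn] at h4
  have h5 : |(n : ℝ)| * (2 * Real.pi) < 1 := by simpa [abs_of_pos Real.pi_pos] using h4
  have h6 : |(n : ℝ)| < 1 := by nlinarith [Real.pi_gt_three, abs_nonneg (n : ℝ)]
  have h7 : n = 0 := Int.abs_lt_one_iff.1 (by exact_mod_cast h6)
  rw [← sub_eq_zero, hn, h7]
  simp

end Vale.Agent.P267
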