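import Vale.Agent.P267D.DA

/-! P267, the drift: the conjugate differential is a connection on the trivial bundle. -/

open scoped Manifold ContDiff Topology
open Filter Metric Set

noncomputable section

namespace Vale.Agent.P267

set_option linter.unusedSectionVars false

variable {X M : Type} [TopologicalSpace X] [ChartedSpace C2 X] [T2Space X] [CompactSpace X]
  [IsManifold 𝓘(ℂ, C2) ω X] [TopologicalSpace M] [ChartedSpace C2 M] [T2Space M]
  [IsManifold 𝓘(ℂ, C2) ω M] {π : M → X} {g : M ≃ₜ M}

variable {w : M → ℝ} {s : ℝ}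

theorem DH_chain {F : C2 → ℝ} {T : C2 → C2} {z y : C2} (hF : ContDiffAt ℝ ∞ F y) (e : T z = y)
    (hT : AnalyticAt ℂ T z) (v : C2) :
    fderiv ℝ F y (Complex.I • fderiv ℝ T z v) = fderiv ℝ (F ∘ T) z (Complex.I • v) := by
  subst e
  rw [fderiv_comp z (hF.differentiableAt (by simp)) (hT.differentiableAt.restrictScalars ℝ),
    hT.differentiableAt.fderiv_restrictScalars ℝ]
  simp

theorem DH_app (hw : Sh g w s) (x : M) (v : C2) : dcj w x v =
    (fderiv ℝ (w ∘ (chartAt C2 x).symm) (chartAt C2 x x) (Complex.I • v) : ℝ) :=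
  DFunLike.congr_fun (Complex.ofRealCLM.hasFDerivAt.comp _ ((hw.cd (isCh_chartAt x)
    (mem_chart_target C2 x)).differentiableAt (by simp)).hasFDerivAt).fderiv (Complex.I • v)

theorem inChart_dcj (hw : Sh g w s) {e : OpenPartialHomeomorph M C2} (he : IsCh e) {z : C2}
    (hz : z ∈ e.target) (v : C2) :
    inChart e (dcj w) z v = (fderiv ℝ (w ∘ e.symm) z (Complex.I • v) : ℝ) := by
  have a := he.tr (isCh_chartAt (e.symm z)) (e.map_target hz) (mem_chart_source C2 _)
  rw [e.right_inv hz] at a
  refine (DH_app hw _ _).trans (congrArg _ ((DH_chain (hw.cd (isCh_chartAt _)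
    (mem_chart_target C2 _)) rfl a v).trans ?_))
  rw [EventuallyEq.fderiv_eq (f := w ∘ e.symm)]
  filter_upwards [e.continuousAt_symm hz ((chartAt C2 (e.symm z)).open_source.mem_nhds
    (mem_chart_source C2 _))] with y hy
  simp only [Function.comp_apply, (chartAt C2 (e.symm z)).left_inv hy]

theorem DH_ev (hw : Sh g w s) {e : OpenPartialHomeomorph M C2} (he : IsCh e) {z : C2}
    (hz : z ∈ e.target) (v : C2) : (fun y => inChart e (dcj w) y v) =ᶠ[𝓝 z]
      Complex.ofRealCLM ∘ fun y => fderiv ℝ (w ∘ e.symm) y (Complex.I • v) :=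
  (e.open_target.eventually_mem hz).mono fun _ hy => inChart_dcj hw he hy v

theorem DH_two (hw : Sh g w s) {e : OpenPartialHomeomorph M C2} (he : IsCh e) {z : C2}
    (hz : z ∈ e.target) (u v : C2) : fderiv ℝ (fun y => inChart e (dcj w) y u) z v =
      (fderiv ℝ (fderiv ℝ (w ∘ e.symm)) z v (Complex.I • u) : ℝ) := by
  rw [(DH_ev hw he hz u).fderiv_eq, (Complex.ofRealCLM.hasFDerivAt.comp z
    ((((hw.cd he hz).fderiv_right (m := 1) (by norm_cast)).differentiableAt
      one_ne_zero).hasFDerivAt.clm_apply (hasFDerivAt_const _ z))).fderiv]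
  simp

theorem conn_dcj (h : IsCyclic π g) (hw : Sh g w s) :
    IsConnection g (1 : M → M → ℂ) fun _ => dcj w := by
  refine ⟨fun p v => ?_, fun p => .of_forall fun q => .of_forall fun x => by simp [dAt],
    fun p => .of_forall fun x => ContinuousLinearMap.ext fun v => ?_⟩
  · filter_upwards [(chartAt C2 p).open_target.mem_nhds (mem_chart_target C2 p)] with z hz
    exact (Complex.ofRealCLM.contDiff.contDiffAt.comp z (((hw.cd (isCh_chartAt p) hz).fderiv_right
      (m := ∞) le_rfl).clm_apply contDiffAt_const)).congr_of_eventuallyEq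
        (DH_ev hw (isCh_chartAt p) hz v)
  · have l := (chartAt C2 x).left_inv (mem_chart_source C2 x)
    refine (DH_app hw _ _).trans ((DH_app hw _ _).trans (congrArg _ ((DH_chain (hw.cd
      (isCh_chartAt _) (mem_chart_target C2 _)) (by simp only [Function.comp_apply, l])
      (gc_an (h.hol x) (isCh_chartAt x) (mem_chart_source C2 x) (isCh_chartAt _)
        (mem_chart_source C2 _)) v).trans ?_))).symm
    rw [EventuallyEq.fderiv_eq (f := fun y => (w ∘ (chartAt C2 x).symm) y + s), fderiv_add_const]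
    filter_upwards [(g.continuous.continuousAt.comp ((chartAt C2 x).continuousAt_symm
      (mem_chart_target C2 x))) ((chartAt C2 (g x)).open_source.mem_nhds (by
        simp only [Function.comp_apply, l, mem_chart_source]))] with y hy
    exact (congrArg w ((chartAt C2 (g x)).left_inv hy)).trans (hw.shift _)

theorem wedge_dcj (hw : Sh g w s) {e : OpenPartialHomeomorph M C2} (he : IsCh e) {z : C2}
    (hz : z ∈ e.target) : wedge (curv e (fun _ => dcj w) z) (curv e (fun _ => dcj w) z) =
      (2 * dtm (w ∘ e.symm) z : ℝ) := by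
  have y : ∀ a b, hes (w ∘ e.symm) z a b = hes (w ∘ e.symm) z b a := fun a b =>
    ((hw.cd he hz).isSymmSndFDerivAt (by simp; norm_cast)) _ _
  have b0 : Complex.I • bs 0 = bs 1 := by ext i; fin_cases i <;> simp [bs]
  have b1 : Complex.I • bs 1 = -bs 0 := by ext i; fin_cases i <;> simp [bs]
  have b2 : Complex.I • bs 2 = bs 3 := by ext i; fin_cases i <;> simp [bs]
  have b3 : Complex.I • bs 3 = -bs 2 := by ext i; fin_cases i <;> simp [bs]
  have k : ∀ a b, fderiv ℝ (fderiv ℝ (w ∘ e.symm)) z (bs a) (bs b) = hes (w ∘ e.symm) z a b :=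
    fun _ _ => rfl
  simp only [wedge, curv, extD, DH_two hw he hz, b0, b1, b2, b3, map_neg, k, dtm, y 2 0,
    y 3 0, y 2 1, y 3 1]
  push_cast
  ring

theorem dtm_cont (hw : Sh g w s) {e : OpenPartialHomeomorph M C2} (he : IsCh e) :
    ContinuousOn (dtm (w ∘ e.symm)) e.target := by
  have c : ∀ a b, ContinuousOn (fun z => hes (w ∘ e.symm) z a b) e.target := fun a b z hz =>
    ((((((hw.cd he hz).fderiv_right (m := ∞) le_rfl).fderiv_right (m := ∞) le_rfl).clm_apply
      contDiffAt_const).clm_apply contDiffAt_const).continuousAt).continuousWithinAt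
  exact ((((c _ _).add (c _ _)).mul ((c _ _).add (c _ _))).sub (((c _ _).sub (c _ _)).pow 2)).sub
    (((c _ _).add (c _ _)).pow 2)

end Vale.Agent.P267
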