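import Vale.Agent.P267D.DA

/-! P267, the drift: solutions of the homogeneous equation are pluriharmonic. -/

open scoped Manifold ContDiff Topology
open Filter Metric Set

noncomputable section

namespace Vale.Agent.P267

set_option linter.unusedSectionVars false

variable {X M : Type} [TopologicalSpace X] [ChartedSpace C2 X] [T2Space X] [CompactSpace X]
  [IsManifold 𝓘(ℂ, C2) ω X] [TopologicalSpace M] [ChartedSpace C2 M] [T2Space M]
  [IsManifold 𝓘(ℂ, C2) ω M] {π : M → X} {g : M ≃ₜ M}

variable {m : ℕ} {P : Fin m → OpenPartialHomeomorph M C2} {Q : Fin m → OpenPartialHomeomorph X C2}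
  {ρ : Fin m → X → ℝ} {w : M → ℝ} {s : ℝ}

theorem Lay.part (h : IsCyclic π g) (L : Lay π g P Q) (hρ : Pu Q ρ) :
    IsPartition g P fun a => (P a).source.indicator (ρ a ∘ π) := by
  have cπ : Continuous π := h.loc.contMDiff.continuous
  have cρ : ∀ a, Continuous (ρ a) := fun a => continuous_iff_continuousAt.2 fun x => by
    obtain ⟨b, hb⟩ := L.cover x
    have h1 := ((hρ.sm a b).continuousOn.continuousAt
      ((Q b).open_target.mem_nhds ((Q b).map_source hb))).comp ((Q b).continuousAt hb)
    refine h1.congr ?_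
    filter_upwards [(Q b).eventually_left_inverse hb] with y hy
    simp only [Function.comp_apply, hy]
  have hK : ∀ a, ∃ K, IsCompact K ∧ K ⊆ (P a).source ∧
      tsupport ((P a).source.indicator (ρ a ∘ π)) ⊆ K := fun a => by
    have ht : Q a '' tsupport (ρ a) ⊆ (P a).target := by
      rintro _ ⟨x, hx, rfl⟩
      rw [← L.tgt]
      exact (Q a).map_source (hρ.supp a hx)
    have hc : IsCompact ((P a).symm '' (Q a '' tsupport (ρ a))) :=
      ((isClosed_tsupport _).isCompact.image_of_continuousOn
        ((Q a).continuousOn.mono (hρ.supp a))).image_of_continuousOn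
          ((P a).continuousOn_symm.mono ht)
    refine ⟨_, hc, ?_, closure_minimal (fun p hp => ?_) hc.isClosed⟩
    · rintro _ ⟨z, hz, rfl⟩
      exact (P a).map_target (ht hz)
    · have h1 : p ∈ (P a).source := mem_of_indicator_ne_zero hp
      have h2 : ρ a (π p) ≠ 0 := by
        have h3 := hp
        rw [Function.mem_support, indicator_of_mem h1] at h3
        exact h3
      exact ⟨P a p, ⟨π p, subset_tsupport _ h2, (L.pi_mem h1).2⟩, (P a).left_inv h1⟩
  refine ⟨fun a => (L.isCh a).hol, fun a => ?_, fun a => ?_, fun a => ?_, fun x => ?_⟩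
  · obtain ⟨K, -, h2, h3⟩ := hK a
    refine continuous_of_tsupport fun p hp => ((cρ a).comp cπ).continuousAt.congr ?_
    filter_upwards [(P a).open_source.mem_nhds (h2 (h3 hp))] with q hq
    rw [indicator_of_mem hq]
  · obtain ⟨K, h1, -, h3⟩ := hK a
    exact h1.of_isClosed_subset (isClosed_tsupport _) h3
  · obtain ⟨K, -, h2, h3⟩ := hK a
    exact h3.trans h2
  · have key : ∀ a, ∃ k₀ : ℤ,
        (∀ k, k ≠ k₀ → (P a).source.indicator (ρ a ∘ π) ((g ^ k) x) = 0) ∧
        (P a).source.indicator (ρ a ∘ π) ((g ^ k₀) x) = ρ a (π x) := fun a => by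
      by_cases hx : π x ∈ (Q a).source
      · obtain ⟨k₀, h1, h2⟩ := L.uniq h hx
        refine ⟨k₀, fun k hk => indicator_of_notMem (fun j => hk (h2 k j)) _, ?_⟩
        rw [indicator_of_mem h1, Function.comp_apply, h.pi_gz]
      · have h0 : ρ a (π x) = 0 := image_eq_zero_of_notMem_tsupport fun j => hx (hρ.supp a j)
        have h1 : ∀ k : ℤ, (P a).source.indicator (ρ a ∘ π) ((g ^ k) x) = 0 := fun k =>
          indicator_apply_eq_zero.2 fun _ => by rw [Function.comp_apply, h.pi_gz, h0]
        exact ⟨0, fun k _ => h1 k, (h1 0).trans h0.symm⟩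
    choose k₀ h1 h2 using key
    rw [finsum_sum_comm _ _ fun a _ => (finite_singleton (k₀ a)).subset fun k hk =>
      by_contra fun j => hk (h1 a k j), ← hρ.sum (π x)]
    exact Finset.sum_congr rfl fun a _ => (finsum_eq_single _ (k₀ a) (h1 a)).trans (h2 a)

end Vale.Agent.P267
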