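import Vale.Agent.P267D.DH
import Vale.Agent.P267D.DI0

/-! P267, the drift: solutions of the homogeneous equation are pluriharmonic. -/

open scoped Manifold ContDiff Topology
open Filter Metric Set

noncomputable section

namespace Vale.Agent.P267

set_option linter.unusedSectionVars false

variable {X M : Type} [TopologicalSpace X] [ChartedSpace C2 X] [T2Space X] [CompactSpace X]
  [IsManifold 𝓘(ℂ, C2) ω X] [TopologicalSpace M] [ChartedSpace C2 M] [T2Space M]
  [IsManifold 𝓘(ℂ, C2) ω M] {π : M → X} {g : M ≃ₜ M}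

variable {m : ℕ} {P : Fin m → OpenPartialHomeomorph M C2} {Q : Fin m → OpenPartialHomeomorph X C2}
  {ρ : Fin m → X → ℝ} {w : M → ℝ} {s : ℝ}

theorem DI1_pair (h : IsCyclic π g) (L : Lay π g P Q) {ψ : Fin m → M → ℝ}
    (hψ : IsPartition g P ψ) (hw : Sh g w s) {k : M → M → ℂ} {r : ℕ} {Λ : Fin r → M → M → ℂ}
    {c : (M → M → ℂ) → Fin r → ℤ} (hL : IsLattice g k Λ c) :
    -(4 * Real.pi ^ 2 : ℂ)⁻¹ * ((∑ a, ∫ z in (P a).target,
      ψ a ((P a).symm z) * (2 * dtm (w ∘ (P a).symm) z) : ℝ) : ℂ) =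
      -((∑ j, c 1 j * c 1 j : ℤ) : ℂ) := by
  have h1 : IsBundle SmAt (1 : M → M → ℂ) := fun p => Eventually.of_forall fun q =>
    ⟨one_ne_zero, by simpa using (smAt_one : SmAt (1 : M → ℂ) q)⟩
  rw [← hL.pair 1 1 _ _ h1 rfl h1 rfl (conn_dcj h hw) (conn_dcj h hw) m P ψ hψ, pairing,
    Complex.ofReal_sum]
  congr 1
  refine Finset.sum_congr rfl fun a _ => ?_
  rw [← integral_complex_ofReal]
  refine MeasureTheory.setIntegral_congr_fun (P a).open_target.measurableSet fun z hz => ?_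
  simp only [wedge_dcj hw (L.isCh a) hz, Complex.ofReal_mul]

theorem Lay.dtm_eq (h : IsCyclic π g) (L : Lay π g P Q) (hρ : Pu Q ρ) (hw : Sh g w s)
    {k : M → M → ℂ} {r : ℕ} {Λ : Fin r → M → M → ℂ} {c : (M → M → ℂ) → Fin r → ℤ}
    (hL : IsLattice g k Λ c) (h0 : ∀ a, ∀ z ∈ (P a).target, dtm (w ∘ (P a).symm) z ≤ 0)
    {a : Fin m} {x : X} (hx : ρ a x ≠ 0) : dtm (w ∘ (P a).symm) (Q a x) = 0 := by
  have hψ := L.part h hρ
  set ψ : Fin m → M → ℝ := fun a => (P a).source.indicator (ρ a ∘ π) with hψd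
  have hz : Sh g (fun _ : M => (0 : ℝ)) 0 := ⟨fun p => smAt_const _, fun p => by simp⟩
  have e1 := DI1_pair h L hψ hw hL
  rw [← DI1_pair h L hψ hz hL] at e1
  have e2 := Complex.ofReal_injective (mul_left_cancel₀ (by simp [Real.pi_ne_zero]) e1)
  have hd : ∀ a z, dtm ((fun _ : M => (0 : ℝ)) ∘ (P a).symm) z = 0 := fun a z => by
    have : (fun _ : M => (0 : ℝ)) ∘ (P a).symm = fun _ => 0 := rfl
    simp [dtm, hes, this]
  simp only [hd, mul_zero, MeasureTheory.integral_zero, Finset.sum_const_zero] at e2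
  have hψ0 : ∀ a p, 0 ≤ ψ a p := fun a p => indicator_nonneg (fun q _ => hρ.nonneg a _) p
  have hle : ∀ a, ∀ z ∈ (P a).target,
      ψ a ((P a).symm z) * (2 * dtm (w ∘ (P a).symm) z) ≤ 0 := fun a z hz =>
    mul_nonpos_of_nonneg_of_nonpos (hψ0 a _) (by linarith [h0 a z hz])
  have e3 := (Finset.sum_eq_zero_iff_of_nonpos fun a _ =>
    MeasureTheory.setIntegral_nonpos (P a).open_target.measurableSet (hle a)).1 e2 a
      (Finset.mem_univ a)
  have hc : ContinuousOn (fun z => ψ a ((P a).symm z) * (2 * dtm (w ∘ (P a).symm) z))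
      (P a).target :=
    ((hψ.cont a).comp_continuousOn (P a).continuousOn_symm).mul
      (continuousOn_const.mul (dtm_cont hw (L.isCh a)))
  have hK : IsCompact (P a '' tsupport (ψ a)) :=
    (hψ.compact a).isCompact.image_of_continuousOn ((P a).continuousOn.mono (hψ.supp a))
  have hKt : P a '' tsupport (ψ a) ⊆ (P a).target := by
    rintro _ ⟨p, hp, rfl⟩
    exact (P a).map_source (hψ.supp a hp)
  have hi : MeasureTheory.IntegrableOn
      (fun z => ψ a ((P a).symm z) * (2 * dtm (w ∘ (P a).symm) z)) (P a).target := by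
    refine ((hc.mono hKt).integrableOn_compact hK).of_forall_sdiff_eq_zero
      (P a).open_target.measurableSet fun z hz => ?_
    have : ψ a ((P a).symm z) = 0 := by
      by_contra hne
      exact hz.2 ⟨_, subset_tsupport _ hne, (P a).right_inv hz.1⟩
    rw [this, zero_mul]
  have hae := (MeasureTheory.setIntegral_eq_zero_iff_of_nonneg_ae (f := fun z =>
    -(ψ a ((P a).symm z) * (2 * dtm (w ∘ (P a).symm) z))) (MeasureTheory.ae_restrict_of_forall_mem
      (P a).open_target.measurableSet fun z hz => neg_nonneg.2 (hle a z hz)) hi.neg).1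
    (by rw [MeasureTheory.integral_neg, e3, neg_zero])
  have hx1 : x ∈ (Q a).source := hρ.supp a (subset_tsupport _ hx)
  have hx2 : Q a x ∈ (P a).target := L.tgt a ▸ (Q a).map_source hx1
  have e4 := MeasureTheory.Measure.eqOn_open_of_ae_eq hae (P a).open_target hc.neg
    continuousOn_const hx2
  obtain ⟨l1, l2, -⟩ := L.lift hx1
  have e5 : ψ a ((P a).symm (Q a x)) = ρ a x := by
    simp only [hψd, indicator_of_mem l1, Function.comp_apply, l2]
  simp only [e5, Pi.zero_apply, neg_eq_zero, mul_eq_zero, hx, false_or] at e4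
  simpa using e4

end Vale.Agent.P267
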