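import Vale.Agent.P267D.DG
import Vale.Agent.P267D.DH
import Vale.Agent.P267D.DI0
import Vale.Agent.P267D.DI1

/-! P267, the drift: solutions of the homogeneous equation are pluriharmonic. -/

open scoped Manifold ContDiff Topology
open Filter Metric Set

noncomputable section

namespace Vale.Agent.P267

set_option linter.unusedSectionVars false

variable {X M : Type} [TopologicalSpace X] [ChartedSpace C2 X] [T2Space X] [CompactSpace X]
  [IsManifold 𝓘(ℂ, C2) ω X] [TopologicalSpace M] [ChartedSpace C2 M] [T2Space M]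
  [IsManifold 𝓘(ℂ, C2) ω M] {π : M → X} {g : M ≃ₜ M}

variable {m : ℕ} {P : Fin m → OpenPartialHomeomorph M C2} {Q : Fin m → OpenPartialHomeomorph X C2}
  {ρ : Fin m → X → ℝ} {w : M → ℝ} {s : ℝ}

theorem DI_src (hρ : Pu Q ρ) {b : Fin m} {x : X} (hx : ρ b x ≠ 0) : x ∈ (Q b).source :=
  hρ.supp b (subset_tsupport _ hx)

theorem DI_ex (hρ : Pu Q ρ) (x : X) : ∃ b, ρ b x ≠ 0 := by
  by_contra hn
  have h1 := hρ.sum x
  rw [Finset.sum_eq_zero fun b _ => not_not.1 fun hb => hn ⟨b, hb⟩] at h1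
  exact zero_ne_one h1

theorem DI_trc (h : IsCyclic π g) (L : Lay π g P Q) (hρ : Pu Q ρ) (hw : Sh g w s)
    (h0 : ∀ x, pop Q ρ (fun b => w ∘ (P b).symm) x = 0) {a b : Fin m} {x : X}
    (ha : x ∈ (Q a).source) (hb : ρ b x ≠ 0)
    (hs : (∀ v, 0 ≤ lev (w ∘ (P a).symm) (Q a x) v) ∨ ∀ v, lev (w ∘ (P a).symm) (Q a x) v ≤ 0) :
    trc (w ∘ (P b).symm) (Q b x) = 0 := by
  refine (mul_eq_zero.1 ?_).resolve_left hb
  rcases hs with hs | hs
  · refine (Finset.sum_eq_zero_iff_of_nonneg fun c _ => ?_).1 (h0 x) b (Finset.mem_univ b)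
    by_cases hc : ρ c x = 0
    · rw [hc, zero_mul]
    · obtain ⟨T, hT⟩ := L.levT h hw ha (DI_src hρ hc)
      refine mul_nonneg (hρ.nonneg c x) ?_
      rw [trc, hT, hT]
      exact add_nonneg (hs _) (hs _)
  · refine (Finset.sum_eq_zero_iff_of_nonpos fun c _ => ?_).1 (h0 x) b (Finset.mem_univ b)
    by_cases hc : ρ c x = 0
    · rw [hc, zero_mul]
    · obtain ⟨T, hT⟩ := L.levT h hw ha (DI_src hρ hc)
      refine mul_nonpos_of_nonneg_of_nonpos (hρ.nonneg c x) ?_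
      rw [trc, hT, hT]
      exact add_nonpos (hs _) (hs _)

theorem DI_pt (L : Lay π g P Q) {a : Fin m} {z : C2} (hz : z ∈ (P a).target) :
    ∃ x ∈ (Q a).source, Q a x = z :=
  ⟨_, (Q a).map_target (L.tgt a ▸ hz), (Q a).right_inv (L.tgt a ▸ hz)⟩

theorem Lay.dtm_le (h : IsCyclic π g) (L : Lay π g P Q) (hρ : Pu Q ρ) (hw : Sh g w s)
    (h0 : ∀ x, pop Q ρ (fun b => w ∘ (P b).symm) x = 0) (a : Fin m) :
    ∀ z ∈ (P a).target, dtm (w ∘ (P a).symm) z ≤ 0 := by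
  intro z hz
  obtain ⟨x, hx, rfl⟩ := DI_pt L hz
  obtain ⟨b, hb⟩ := DI_ex hρ x
  obtain ⟨T, hT⟩ := L.levT h hw hx (DI_src hρ hb)
  have hn : ∀ j : Fin 2, T (Pi.single j 1) ≠ 0 := fun j => by simp
  have hz0 : lev (w ∘ (P a).symm) (Q a x) 0 = 0 := by simp [lev]
  refine not_lt.1 fun hd => ?_
  rcases dtm_def (hw.cd (L.isCh a) hz) hd with hs | hs
  · have k := DI_trc h L hρ hw h0 hx hb (Or.inl fun v => by
      rcases eq_or_ne v 0 with rfl | hv
      exacts [hz0.ge, (hs v hv).le])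
    rw [trc, hT, hT] at k
    linarith [hs _ (hn 0), hs _ (hn 1)]
  · have k := DI_trc h L hρ hw h0 hx hb (Or.inr fun v => by
      rcases eq_or_ne v 0 with rfl | hv
      exacts [hz0.le, (hs v hv).le])
    rw [trc, hT, hT] at k
    linarith [hs _ (hn 0), hs _ (hn 1)]

theorem Lay.flat (h : IsCyclic π g) (L : Lay π g P Q) (hρ : Pu Q ρ) (hw : Sh g w s)
    {k : M → M → ℂ} {r : ℕ} {Λ : Fin r → M → M → ℂ} {c : (M → M → ℂ) → Fin r → ℤ}
    (hL : IsLattice g k Λ c) (h0 : ∀ x, pop Q ρ (fun b => w ∘ (P b).symm) x = 0) (a : Fin m) :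
    ∀ z ∈ (P a).target, ∀ v, lev (w ∘ (P a).symm) z v = 0 := by
  intro z hz v
  obtain ⟨x, hx, rfl⟩ := DI_pt L hz
  obtain ⟨b, hb⟩ := DI_ex hρ x
  have hx' := DI_src hρ hb
  obtain ⟨T, hT⟩ := L.levT h hw hx' hx
  have hc := hw.cd (L.isCh b) (L.tgt b ▸ (Q b).map_source hx')
  have hs := dtm_semi hc (L.dtm_eq h hρ hw hL (L.dtm_le h hρ hw h0) hb).ge
  rw [hT, lev_zero hc hs (DI_trc h L hρ hw h0 hx' hb hs)]

end Vale.Agent.P267
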