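import Vale.Agent.P267D.DG0

/-! P267, the drift: the first Betti number. -/

open scoped Manifold ContDiff Topology
open Filter Metric Set

noncomputable section

namespace Vale.Agent.P267

set_option linter.unusedSectionVars false

variable {X M : Type} [TopologicalSpace X] [ChartedSpace C2 X] [T2Space X] [CompactSpace X]
  [IsManifold 𝓘(ℂ, C2) ω X] [TopologicalSpace M] [ChartedSpace C2 M] [T2Space M]
  [IsManifold 𝓘(ℂ, C2) ω M] {π : M → X} {g : M ≃ₜ M}

variable {m : ℕ} {P : Fin m → OpenPartialHomeomorph M C2} {Q : Fin m → OpenPartialHomeomorph X C2}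
  {w : M → ℝ} {s : ℝ}

theorem DJ0_bc {Y : Type} [TopologicalSpace Y] {F : Y → Y → ℂ} (h : F ∈ Bc Y) :
    ∃ s : Y → ℂ, ∀ p, ConstAt (F p - s) p := by
  induction h using Submodule.span_induction with
  | mem x hx => exact hx
  | zero => exact ⟨0, fun p => Eventually.of_forall fun q => by simp⟩
  | add x y _ _ hx hy =>
    obtain ⟨s, hs⟩ := hx
    obtain ⟨s', hs'⟩ := hy
    refine ⟨s + s', fun p => ?_⟩
    filter_upwards [hs p, hs' p] with q h1 h2
    simp only [Pi.sub_apply, Pi.add_apply] at h1 h2 ⊢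
    linear_combination h1 + h2
  | smul c x _ hx =>
    obtain ⟨s, hs⟩ := hx
    refine ⟨c • s, fun p => ?_⟩
    filter_upwards [hs p] with q h1
    simp only [Pi.sub_apply, Pi.smul_apply, smul_eq_mul] at h1 ⊢
    linear_combination c * h1

theorem betti_dep {Y : Type} [TopologicalSpace Y] (hb : firstBetti Y = 1) {f f' : Y → Y → ℂ}
    (hf : ∀ p, ∀ᶠ q in 𝓝 p, ConstAt (f p - f q) q)
    (hf' : ∀ p, ∀ᶠ q in 𝓝 p, ConstAt (f' p - f' q) q) : ∃ (α β : ℂ) (S : Y → ℂ),
      (α ≠ 0 ∨ β ≠ 0) ∧ ∀ p, ConstAt (α • f p + β • f' p - S) p := by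
  let x : Zc Y := ⟨f, Submodule.subset_span hf⟩
  let y : Zc Y := ⟨f', Submodule.subset_span hf'⟩
  have key : ∀ α β : ℂ, α • ((Bc Y).submoduleOf (Zc Y)).mkQ x +
      β • ((Bc Y).submoduleOf (Zc Y)).mkQ y = 0 →
      ∃ S : Y → ℂ, ∀ p, ConstAt (α • f p + β • f' p - S) p := fun α β h => by
    rw [← map_smul, ← map_smul, ← map_add, Submodule.mkQ_apply,
      Submodule.Quotient.mk_eq_zero] at h
    exact DJ0_bc (F := α • f + β • f') h
  obtain ⟨v, -, hv⟩ := finrank_eq_one_iff'.1 hb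
  obtain ⟨c, hc⟩ := hv (((Bc Y).submoduleOf (Zc Y)).mkQ x)
  obtain ⟨c', hc'⟩ := hv (((Bc Y).submoduleOf (Zc Y)).mkQ y)
  by_cases h0 : c = 0
  · obtain ⟨S, hS⟩ := key 1 0 (by rw [← hc, h0, zero_smul, zero_smul, smul_zero, add_zero])
    exact ⟨1, 0, S, Or.inl one_ne_zero, hS⟩
  · obtain ⟨S, hS⟩ := key c' (-c) (by
      rw [← hc, ← hc', smul_smul, smul_smul, ← add_smul, neg_mul, mul_comm, add_neg_cancel,
        zero_smul])
    exact ⟨c', -c, S, Or.inr (neg_ne_zero.2 h0), hS⟩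

/-- The maximum principle on the compact base. -/
theorem re_const [ConnectedSpace X] {S : X → ℝ} (a : X → Fin m) (ha : ∀ x, x ∈ (Q (a x)).source)
    (H : X → C2 → ℂ) (hH : ∀ x, AnalyticAt ℂ (H x) (Q (a x) x))
    (hS : ∀ x, ∀ᶠ y in 𝓝 x, S y = (H x (Q (a x) y)).re) (x : X) :
    ∀ᶠ z in 𝓝 (Q (a x) x), H x z = H x (Q (a x) x) := by
  have hc : Continuous S := continuous_iff_continuousAt.2 fun y =>
    (Complex.continuous_re.continuousAt.comp
      ((hH y).continuousAt.comp ((Q (a y)).continuousAt (ha y)))).congr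
        (EventuallyEq.symm (hS y))
  obtain ⟨x₀, -, h0⟩ := isCompact_univ.exists_isMaxOn univ_nonempty hc.continuousOn
  have key : ∀ y, S y = S x₀ → ∀ᶠ z in 𝓝 (Q (a y) y), H y z = H y (Q (a y) y) := fun y hy => by
    refine const_of_max (hH y) ?_
    have h1 := ((Q (a y)).tendsto_symm (ha y)).eventually (hS y)
    filter_upwards [h1, (Q (a y)).open_target.mem_nhds ((Q (a y)).map_source (ha y))]
      with z h2 h3
    rw [(Q (a y)).right_inv h3] at h2
    rw [← h2, ← (hS y).self_of_nhds, hy]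
    exact h0 (mem_univ _)
  have hcl : IsClopen {y | S y = S x₀} := by
    refine ⟨isClosed_eq hc continuous_const, isOpen_iff_mem_nhds.2 fun y hy => ?_⟩
    filter_upwards [hS y, ((Q (a y)).continuousAt (ha y)).tendsto.eventually (key y hy)]
      with z h1 h2
    have h3 : S y = S x₀ := hy
    show S z = S x₀
    rw [h1, h2, ← (hS y).self_of_nhds, h3]
  have h1 : x ∈ {y | S y = S x₀} := by
    rw [hcl.eq_univ ⟨x₀, rfl⟩]
    exact mem_univ x
  exact key x h1

end Vale.Agent.P267
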