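import Vale.Agent.P267D.DA
import Vale.Agent.P267D.DJ0

/-! P267, the drift: the first Betti number. -/

open scoped Manifold ContDiff Topology
open Filter Metric Set

noncomputable section

namespace Vale.Agent.P267

set_option linter.unusedSectionVars false

variable {X M : Type} [TopologicalSpace X] [ChartedSpace C2 X] [T2Space X] [CompactSpace X]
  [IsManifold 𝓘(ℂ, C2) ω X] [TopologicalSpace M] [ChartedSpace C2 M] [T2Space M]
  [IsManifold 𝓘(ℂ, C2) ω M] {π : M → X} {g : M ≃ₜ M}

variable {m : ℕ} {P : Fin m → OpenPartialHomeomorph M C2} {Q : Fin m → OpenPartialHomeomorph X C2}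
  {w : M → ℝ} {s : ℝ}

theorem Lay.const [ConnectedSpace M] (h : IsCyclic π g) (L : Lay π g P Q) (hw : Sh g w s)
    (hb : firstBetti X = 1) (h0 : ∀ a, ∀ z ∈ (P a).target, ∀ v, lev (w ∘ (P a).symm) z v = 0)
    (p q : M) : w p = w q := by
  have hπ : Continuous π := h.loc.contMDiff.continuous
  have : ConnectedSpace X := h.surj.connectedSpace hπ
  choose a ha using L.cover
  have hH : ∀ x : X, ∃ H : C2 → ℂ, AnalyticAt ℂ H (Q (a x) x) ∧
      ∀ᶠ z in 𝓝 (Q (a x) x), (H z).re = (w ∘ (P (a x)).symm) z := fun x => by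
    refine re_hol ?_
    filter_upwards [(P (a x)).open_target.mem_nhds (L.tgt _ ▸ (Q (a x)).map_source (ha x))]
      with z hz
    exact ⟨hw.cd (L.isCh _) hz, h0 _ z hz⟩
  choose H hA hR using hH
  have hc : ∀ x, Tendsto (Q (a x)) (𝓝 x) (𝓝 (Q (a x) x)) := fun x => (Q (a x)).continuousAt (ha x)
  have hK : ∀ p, ∀ᶠ q in 𝓝 p, ∀ᶠ y in 𝓝 q, H p (Q (a p) y) - H q (Q (a q) y) =
      H p (Q (a p) q) - H q (Q (a q) q) := fun p => by
    filter_upwards [(Q (a p)).open_source.mem_nhds (ha p), (hc p).eventually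
      (hA p).eventually_analyticAt, ((hc p).eventually (hR p)).eventually_nhds] with q h1 h2 h3
    obtain ⟨c, h4⟩ := L.loc h hw (ha q) h1
    have e := (Q (a q)).left_inv (ha q)
    have ht : Tendsto (Q (a q)).symm (𝓝 (Q (a q) q)) (𝓝 q) := (Q (a q)).tendsto_symm (ha q)
    have h5 : AnalyticAt ℂ (fun z => H p (Q (a p) ((Q (a q)).symm z)) - H q z) (Q (a q) q) := by
      refine (AnalyticAt.comp_of_eq h2 (L.hol (a q) (a p) _ ⟨(Q (a q)).map_source (ha q), ?_⟩)
        ?_).sub (hA q)
      · rw [mem_preimage, e]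
        exact h1
      · simp only [e]
    have h6 : ∀ᶠ z in 𝓝 (Q (a q) q), (H p (Q (a p) ((Q (a q)).symm z)) - H q z).re = c := by
      filter_upwards [ht.eventually h3, ht.eventually h4, hR q,
        (Q (a q)).eventually_right_inverse' (ha q)] with z b1 b2 b3 b4
      rw [Complex.sub_re, b1, b3, Function.comp_apply, b2, b4, Function.comp_apply]
      ring
    have h7 := const_of_max h5 (h6.mono fun z hz => (hz.trans h6.self_of_nhds.symm).le)
    filter_upwards [(hc q).eventually h7, (Q (a q)).eventually_left_inverse (ha q)] with y b1 b2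
    rwa [b2, e] at b1
  obtain ⟨α, β, S, hne, hS⟩ := betti_dep hb (f := fun x y => H x (Q (a x) y))
    (f' := fun x y => (starRingEnd ℂ) (H x (Q (a x) y))) hK fun p => (hK p).mono fun q hq =>
      hq.mono fun y hy => by simpa using congrArg (starRingEnd ℂ) hy
  have key : ∀ μ : ℂ, μ * α + (starRingEnd ℂ) (μ * β) ≠ 0 → ∀ x,
      ∀ᶠ z in 𝓝 (Q (a x) x), H x z = H x (Q (a x) x) := fun μ hμ x => by
    have := re_const (S := fun y => (μ * S y).re) a ha
      (fun x z => (μ * α + (starRingEnd ℂ) (μ * β)) * H x z - μ * (α * H x (Q (a x) x) +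
        β * (starRingEnd ℂ) (H x (Q (a x) x)) - S x))
      (fun x => (analyticAt_const.mul (hA x)).sub analyticAt_const)
      (fun x => (hS x).mono fun y hy => by
        simp only [Pi.sub_apply, Pi.add_apply, Pi.smul_apply, smul_eq_mul] at hy
        rw [← hy]
        simp only [Complex.sub_re, Complex.mul_re, Complex.add_re, Complex.add_im, Complex.mul_im,
          Complex.conj_re, Complex.conj_im, Complex.sub_im]
        ring) x
    exact this.mono fun z hz => mul_left_cancel₀ hμ (sub_left_injective hz)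
  have hcst : ∀ x, ∀ᶠ z in 𝓝 (Q (a x) x), H x z = H x (Q (a x) x) := by
    by_cases h1 : 1 * α + (starRingEnd ℂ) (1 * β) = 0
    · refine key Complex.I fun h2 => ?_
      rw [map_mul, Complex.conj_I] at h2
      rw [one_mul, one_mul] at h1
      have h3 : α = 0 := by
        linear_combination h1 / 2 - Complex.I * h2 / 2 +
          (α - (starRingEnd ℂ) β) / 2 * Complex.I_mul_I
      rw [h3, zero_add, map_eq_zero] at h1
      exact hne.elim (fun h => h h3) fun h => h h1
    · exact key 1 h1
  refine IsLocallyConstant.apply_eq_of_preconnectedSpace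
    ((IsLocallyConstant.iff_eventually_eq w).2 fun p => ?_) p q
  obtain ⟨k, hk, -⟩ := L.uniq h (ha (π p))
  have hv : ∀ q, (g ^ k) q ∈ (P (a (π p))).source →
      w ((P (a (π p))).symm (Q (a (π p)) (π q))) = w q + k * s := fun q hq => by
    rw [← h.pi_gz k q, (L.pi_mem hq).2, (P _).left_inv hq, hw.gz]
  have ht := (hc (π p)).comp (hπ.tendsto p)
  filter_upwards [(g ^ k).continuous.continuousAt.preimage_mem_nhds
    ((P _).open_source.mem_nhds hk), ht.eventually (hcst _), ht.eventually (hR _)] with q b1 b2 b3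
  have b4 := (hR (π p)).self_of_nhds
  simp only [Function.comp_apply] at b2 b3 b4
  rw [b2, b4, hv p hk, hv q b1] at b3
  linarith

end Vale.Agent.P267
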