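import Vale.Agent.P267D.Defs

/-! P267, the drift: the inverse deck transformation. -/

open scoped Manifold ContDiff Topology
open Filter Metric Set

noncomputable section

namespace Vale.Agent.P267

variable {M : Type} [TopologicalSpace M] [ChartedSpace C2 M] [T2Space M]
  [IsManifold 𝓘(ℂ, C2) ω M]

omit [TopologicalSpace M] [ChartedSpace C2 M] [T2Space M] [IsManifold 𝓘(ℂ, C2) ω M] in
theorem DK_pull {G G' : M → M} (h : ∀ x, G' (G x) = x) {u : M → M → ℂ} (e : pull G' u = u) :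
    pull G u = u := by
  funext p q
  have := congrFun (congrFun e (G p)) (G q)
  simp only [pull, h] at this
  exact this.symm

omit [TopologicalSpace M] [ChartedSpace C2 M] [T2Space M] [IsManifold 𝓘(ℂ, C2) ω M] in
theorem DK_comp {G G' : M → M} (h : ∀ x, G' (G x) = x) {s : M → ℂ} (e : s ∘ G' = s) :
    s ∘ G = s := by
  funext p
  have := congrFun e (G p)
  simp only [Function.comp_apply, h] at this
  exact this.symm

omit [T2Space M] [IsManifold 𝓘(ℂ, C2) ω M] in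
theorem DK_euler {G G' : M → M} (h : ∀ x, G' (G x) = x) (h' : ∀ x, G (G' x) = x)
    {u k : M → M → ℂ} {n : ℤ} (e : Euler G u k n) : Euler G' u k n := by
  have e0 : ∀ v : M → M → ℂ, H0 G' v = H0 G v := fun v => by
    unfold H0
    congr 1
    ext s
    exact and_congr_left fun _ => ⟨DK_comp h, DK_comp h'⟩
  have e1 : Z1 G' u = Z1 G u := by
    unfold Z1
    congr 1
    ext s
    exact and_congr_left fun _ => ⟨DK_pull h, DK_pull h'⟩
  have e2 : B1 G' u = B1 G u := by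
    unfold B1
    congr 1
    ext f
    exact exists_congr fun s => and_congr_left fun _ => ⟨DK_comp h, DK_comp h'⟩
  unfold Euler H1 at e ⊢
  rw [e0, e0, e1, e2]
  exact e

omit [IsManifold 𝓘(ℂ, C2) ω M] in
theorem DK_chain {G : M ≃ₜ M} (hG : ContMDiff 𝓘(ℂ, C2) 𝓘(ℂ, C2) ω G)
    (hG' : ContMDiff 𝓘(ℂ, C2) 𝓘(ℂ, C2) ω G.symm) (hch : ∀ x : M, IsCh (chartAt C2 x)) (x : M) :
    (fderiv ℝ (chartAt C2 x ∘ G.symm ∘ (chartAt C2 (G x)).symm) (chartAt C2 (G x) (G x))).comp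
      (fderiv ℝ (chartAt C2 (G x) ∘ G ∘ (chartAt C2 x).symm) (chartAt C2 x x)) =
      ContinuousLinearMap.id ℝ C2 := by
  have hx := mem_chart_source C2 x
  have hy := mem_chart_source C2 (G x)
  have a2 := gc_an (hG x) (hch x) hx (hch (G x)) hy
  have a1 := gc_an (hG' (G x)) (hch (G x)) hy (hch x) (by rw [G.symm_apply_apply]; exact hx)
  have e : (chartAt C2 (G x) ∘ G ∘ (chartAt C2 x).symm) (chartAt C2 x x) =
      chartAt C2 (G x) (G x) := by
    simp only [Function.comp_apply, (chartAt C2 x).left_inv hx]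
  have d1 := a1.differentiableAt.restrictScalars ℝ
  have d2 := a2.differentiableAt.restrictScalars ℝ
  rw [← e] at d1 ⊢
  rw [← fderiv_comp _ d1 d2, ← fderiv_id (𝕜 := ℝ) (x := chartAt C2 x x)]
  refine Filter.EventuallyEq.fderiv_eq ?_
  have ev : ∀ᶠ q in 𝓝 x, G q ∈ (chartAt C2 (G x)).source :=
    G.continuous.continuousAt.preimage_mem_nhds ((chartAt C2 (G x)).open_source.mem_nhds hy)
  filter_upwards [((chartAt C2 x).tendsto_symm hx).eventually ev,
    (chartAt C2 x).eventually_right_inverse' hx] with z h1 h2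
  simp only [Function.comp_apply, id, (chartAt C2 (G x)).left_inv h1, G.symm_apply_apply, h2]

theorem DK_conn {G : M ≃ₜ M} (hG : ContMDiff 𝓘(ℂ, C2) 𝓘(ℂ, C2) ω G)
    (hG' : ContMDiff 𝓘(ℂ, C2) 𝓘(ℂ, C2) ω G.symm) {u : M → M → ℂ} {θ : M → M → C2 →L[ℝ] ℂ}
    (h : IsConnection G.symm u θ) : IsConnection G u θ := by
  refine ⟨h.smooth, h.compat, fun p => ?_⟩
  filter_upwards [G.continuous.continuousAt.eventually (h.per (G p))] with x hx
  simp only [G.symm_apply_apply] at hx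
  rw [hx, ContinuousLinearMap.comp_assoc, DK_chain hG hG' isCh_chartAt,
    ContinuousLinearMap.comp_id]

omit [T2Space M] [IsManifold 𝓘(ℂ, C2) ω M] in
theorem DK_part {G : M ≃ₜ M} {l : ℕ} {P : Fin l → OpenPartialHomeomorph M C2}
    {ψ : Fin l → M → ℝ} (h : IsPartition G⁻¹ P ψ) : IsPartition G P ψ := by
  refine ⟨h.chart, h.cont, h.compact, h.supp, fun x => ?_⟩
  rw [← h.sum x, ← finsum_comp_equiv (Equiv.neg ℤ)]
  simp only [Equiv.neg_apply, inv_zpow']

theorem IsLattice.inv {G : M ≃ₜ M} (hG : ContMDiff 𝓘(ℂ, C2) 𝓘(ℂ, C2) ω G)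
    (hG' : ContMDiff 𝓘(ℂ, C2) 𝓘(ℂ, C2) ω G.symm) {k : M → M → ℂ} {r : ℕ}
    {Λ : Fin r → M → M → ℂ} {c : (M → M → ℂ) → Fin r → ℤ} (h : IsLattice G k Λ c) :
    IsLattice G⁻¹ k Λ c := by
  have i1 : ∀ x, (G⁻¹ : M ≃ₜ M) (G x) = x := G.symm_apply_apply
  have i2 : ∀ x, G ((G⁻¹ : M ≃ₜ M) x) = x := G.apply_symm_apply
  refine ⟨fun j => ⟨(h.hol j).1, DK_pull i2 (h.hol j).2⟩, h.frame, h.basis, h.canonical,
    fun u v θ θ' hu pu hv pv cu cv l P ψ hP => ?_, fun u hu pu => ?_⟩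
  · exact h.pair u v θ θ' hu (DK_pull i1 pu) hv (DK_pull i1 pv) (DK_conn hG hG' cu)
      (DK_conn hG hG' cv) l P ψ (DK_part hP)
  · exact DK_euler i1 i2 (h.rr u hu (DK_pull i1 pu))

end Vale.Agent.P267
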