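import Vale.Agent.P267.Stmt3
import Vale.Agent.P267.GE
import Vale.Agent.P267.GC

/-! P267, the drift: definitions. -/

open scoped Manifold ContDiff Topology
open Filter Metric Set

noncomputable section

namespace Vale.Agent.P267

set_option linter.unusedSectionVars false

/-- The real second derivative on the real basis. -/
def hes (F : C2 → ℝ) (z : C2) (a b : Fin 4) : ℝ := fderiv ℝ (fderiv ℝ F) z (bs a) (bs b)

/-- The determinant of the Levi form, up to a factor. -/
def dtm (F : C2 → ℝ) (z : C2) : ℝ :=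
  (hes F z 0 0 + hes F z 1 1) * (hes F z 2 2 + hes F z 3 3) -
    (hes F z 0 3 - hes F z 1 2) ^ 2 - (hes F z 0 2 + hes F z 1 3) ^ 2

/-- The trace of the Levi form, up to a factor. -/
def trc (F : C2 → ℝ) (z : C2) : ℝ := lev F z (Pi.single 0 1) + lev F z (Pi.single 1 1)

variable {X M : Type} [TopologicalSpace X] [TopologicalSpace M] [ChartedSpace C2 M]

/-- Charts `Q a` of the base, their lifts `P a`, and a partition of unity on the base. -/
structure Lay (π : M → X) (g : M ≃ₜ M) {m : ℕ} (P : Fin m → OpenPartialHomeomorph M C2)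
    (Q : Fin m → OpenPartialHomeomorph X C2) : Prop where
  isCh : ∀ a, IsCh (P a)
  tgt : ∀ a, (Q a).target = (P a).target
  comm : ∀ a, ∀ z ∈ (P a).target, π ((P a).symm z) = (Q a).symm z
  cover : ∀ x, ∃ a, x ∈ (Q a).source
  hol : ∀ a b, AnalyticOnNhd ℂ (fun z => Q b ((Q a).symm z))
    ((Q a).target ∩ (Q a).symm ⁻¹' (Q b).source)

/-- A smooth partition of unity on the base. -/
structure Pu {m : ℕ} (Q : Fin m → OpenPartialHomeomorph X C2) (ρ : Fin m → X → ℝ) : Prop where
  sm : ∀ a b, ContDiffOn ℝ ∞ (ρ a ∘ (Q b).symm) (Q b).target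
  nonneg : ∀ a x, 0 ≤ ρ a x
  supp : ∀ a, tsupport (ρ a) ⊆ (Q a).source
  sum : ∀ x, ∑ a, ρ a x = 1

/-- The elliptic operator on families of local expressions. -/
def pop {m : ℕ} (Q : Fin m → OpenPartialHomeomorph X C2) (ρ : Fin m → X → ℝ)
    (F : Fin m → C2 → ℝ) (x : X) : ℝ := ∑ b, ρ b x * trc (F b) (Q b x)

/-- Smooth functions that are shifted by `s` under the deck transformation. -/
structure Sh (g : M ≃ₜ M) (w : M → ℝ) (s : ℝ) : Prop where
  sm : ∀ p, SmAt (fun q => (w q : ℂ)) p
  shift : ∀ p, w (g p) = w p + s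

/-- The conjugate differential. -/
def dcj (w : M → ℝ) (x : M) : C2 →L[ℝ] ℂ :=
  (dAt (fun q => (w q : ℂ)) x).comp ((Complex.I • ContinuousLinearMap.id ℂ C2).restrictScalars ℝ)

end Vale.Agent.P267
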